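import Vale.Agent.P073.R2.H580.SpecC

/-!
# P073: weighted fine approximation in smooth coordinates gives fine approximation
-/

namespace Vale.Agent.P073.R2.H655

open MeasureTheory Set Filter Topology Metric Vale.Agent.P073.St Vale.Agent.P073.AB
open Vale.Agent.P073.SQ (ev)
open Vale.Agent.P073.R2.H580
open scoped ContDiff ENNReal

/-- a modulus of continuity -/
theorem exists_modulus {O : Set (V × V)} (hO : IsOpen O) {U : Set V} {h : V → V}
    (hh : ContinuousOn h U) (hm : ∀ x ∈ U, (x, h x) ∈ O) :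
    ∃ σ : V → ℝ, ContinuousOn σ U ∧ (∀ x ∈ U, 0 < σ x) ∧
      ∀ x ∈ U, ∀ y, ‖y - h x‖ ≤ σ x → (x, y) ∈ O := by
  by_cases hne : Oᶜ.Nonempty
  · refine ⟨fun x => infDist ((x, h x) : V × V) Oᶜ / 2, ?_, fun x hx => ?_, fun x hx y hy => ?_⟩
    · exact ((continuous_infDist_pt _).comp_continuousOn (continuousOn_id.prodMk hh)).div_const 2
    · exact half_pos ((hO.isClosed_compl.notMem_iff_infDist_pos hne).1 fun h' => h' (hm x hx))
    · have h0 : 0 < infDist ((x, h x) : V × V) Oᶜ :=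
        (hO.isClosed_compl.notMem_iff_infDist_pos hne).1 fun h' => h' (hm x hx)
      by_contra hc
      have h1 : infDist ((x, h x) : V × V) Oᶜ ≤ dist ((x, h x) : V × V) (x, y) :=
        infDist_le_dist_of_mem hc
      rw [Prod.dist_eq, dist_self, dist_comm, dist_eq_norm, max_eq_right (norm_nonneg _)] at h1
      linarith
  · refine ⟨fun _ => 1, continuousOn_const, fun _ _ => one_pos, fun x _ y _ => ?_⟩
    by_contra hc
    exact hne ⟨_, hc⟩

theorem nev (j : Fin 3) : ‖ev j‖ = 1 := by unfold ev; rw [Pi.norm_single]; simp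

/-- the linear map with given columns -/
theorem cl_of (L : V →L[ℝ] V) : cl (fun i j => L (ev j) i) = L := by
  ext1 v
  funext i
  have h : v = ∑ j, v j • ev j := by
    funext k
    simp [ev, Finset.sum_apply, Pi.single_apply]
  rw [PK.cl_apply]
  conv_rhs => rw [h, map_sum, Finset.sum_apply]
  refine Finset.sum_congr rfl fun j _ => ?_
  rw [map_smul, Pi.smul_apply, smul_eq_mul, mul_comm]

theorem cl_chF (f : V → V) (F : V → Mat) (a b : V → V) (x : V) : cl (chF f F a b x) =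
    (fderiv ℝ b (f (a x))).comp ((cl (F (a x))).comp (fderiv ℝ a x)) :=
  cl_of ((fderiv ℝ b (f (a x))).comp ((cl (F (a x))).comp (fderiv ℝ a x)))

theorem fderiv_inv_comp {U W : Set V} (hU : IsOpen U) (hW : IsOpen W) {g k : V → V}
    (hi : IsInv U W g k) (hg : ContDiffOn ℝ ∞ g U) (hk : ContDiffOn ℝ ∞ k W) {x : V}
    (hx : x ∈ U) :
    (fderiv ℝ k (g x)).comp (fderiv ℝ g x) = ContinuousLinearMap.id ℝ V := by
  have h1 := diffeo_diff hU hg hx
  have h2 := diffeo_diff hW hk (hi.1 x hx).1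
  have h3 := h2.comp x h1
  have h4 : HasFDerivAt (k ∘ g) (ContinuousLinearMap.id ℝ V) x := by
    refine (hasFDerivAt_id x).congr_of_eventuallyEq ?_
    filter_upwards [hU.mem_nhds hx] with z hz using (hi.1 z hz).2
  exact h3.unique h4

theorem add_rpow_le' {p : ℝ} (hp0 : 0 ≤ p) {s t : ℝ} (hs : 0 ≤ s) (ht : 0 ≤ t) :
    (s + t) ^ p ≤ 2 ^ p * s ^ p + 2 ^ p * t ^ p := by
  have h1 : (0 : ℝ) ≤ 2 ^ p * s ^ p := by positivity
  have h2 : (0 : ℝ) ≤ 2 ^ p * t ^ p := by positivity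
  rcases le_total s t with h | h
  · calc (s + t) ^ p ≤ (2 * t) ^ p := Real.rpow_le_rpow (by positivity) (by linarith) hp0
      _ = 2 ^ p * t ^ p := Real.mul_rpow (by norm_num) ht
      _ ≤ _ := by linarith
  · calc (s + t) ^ p ≤ (2 * s) ^ p := Real.rpow_le_rpow (by positivity) (by linarith) hp0
      _ = 2 ^ p * s ^ p := Real.mul_rpow (by norm_num) hs
      _ ≤ _ := by linarith

theorem op_bound {D D0 G H A' A0 Bd Φ : V →L[ℝ] V} (h1 : D0.comp Bd = ContinuousLinearMap.id ℝ V)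
    (h2 : A0.comp A' = ContinuousLinearMap.id ℝ V) (hH : H = Bd.comp (Φ.comp A0)) {C η : ℝ}
    (hD : ‖D‖ ≤ C) (hη : ‖D - D0‖ * ‖Bd‖ ≤ η) :
    ‖D.comp (G.comp A') - Φ‖ ≤ C * ‖A'‖ * ‖G - H‖ + η * ‖Φ‖ := by
  have h3 : D.comp (G.comp A') - Φ =
      D.comp ((G - H).comp A') + (D - D0).comp (Bd.comp Φ) := by
    have e1 : D0.comp (Bd.comp Φ) = Φ := by
      rw [← ContinuousLinearMap.comp_assoc, h1, ContinuousLinearMap.id_comp]
    have e2 : D.comp (H.comp A') = D.comp (Bd.comp Φ) := by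
      rw [hH, ContinuousLinearMap.comp_assoc, ContinuousLinearMap.comp_assoc, h2,
        ContinuousLinearMap.comp_id]
    rw [ContinuousLinearMap.sub_comp, ContinuousLinearMap.comp_sub, ContinuousLinearMap.sub_comp,
      e1, e2]
    abel
  rw [h3]
  refine (norm_add_le _ _).trans (add_le_add ?_ ?_)
  · refine (ContinuousLinearMap.opNorm_comp_le _ _).trans ?_
    have h4 := ContinuousLinearMap.opNorm_comp_le (G - H) A'
    calc ‖D‖ * ‖(G - H).comp A'‖ ≤ C * (‖G - H‖ * ‖A'‖) := by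
          gcongr
          exact (norm_nonneg _).trans hD
      _ = _ := by ring
  · refine (ContinuousLinearMap.opNorm_comp_le _ _).trans ?_
    have h4 := ContinuousLinearMap.opNorm_comp_le Bd Φ
    calc ‖D - D0‖ * ‖Bd.comp Φ‖ ≤ ‖D - D0‖ * (‖Bd‖ * ‖Φ‖) := by gcongr
      _ = ‖D - D0‖ * ‖Bd‖ * ‖Φ‖ := by ring
      _ ≤ _ := by gcongr

/-- Row G. -/
theorem specGlue : SpecGlue := by
  intro p Ω Λ Ω' Λ' f F a b hp hΩ hΛ hΩ' hΛ' hf hF ha hb hW σ₀ hσ₀ hσ₀0 ε hε
  have hp0 : 0 ≤ p := by linarith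
  obtain ⟨α, hαi, hac, hαc⟩ := ha
  obtain ⟨β, hβi, hbc, hβc⟩ := hb
  have hαi' : IsInv Ω Ω' α a := ⟨hαi.2, hαi.1⟩
  have hβi' : IsInv Λ' Λ β b := ⟨hβi.2, hβi.1⟩
  have hαD : St.IsDiffeo Ω Ω' α := ⟨a, hαi', hαc, hac⟩
  have hβD : St.IsDiffeo Λ' Λ β := ⟨b, hβi', hβc, hbc⟩
  have sa : ContDiffOn ℝ ∞ a Ω' := smooth_of_sm hac
  have sα : ContDiffOn ℝ ∞ α Ω := smooth_of_sm hαc
  have sb : ContDiffOn ℝ ∞ b Λ := smooth_of_sm hbc
  have sβ : ContDiffOn ℝ ∞ β Λ' := smooth_of_sm hβc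
  have hfc : ContinuousOn f Ω := by
    obtain ⟨_, -, h, -⟩ := hf
    exact h
  have hfm : ∀ z ∈ Ω, f z ∈ Λ := by
    obtain ⟨_, h, -, -⟩ := hf
    exact fun z hz => (h.1 z hz).1
  have ham : ∀ x ∈ Ω', a x ∈ Ω := fun x hx => (hαi.1 x hx).1
  have hbm : ∀ y ∈ Λ, b y ∈ Λ' := fun y hy => (hβi.1 y hy).1
  set f2 : V → V := fun x => b (f (a x)) with hf2
  have hf2c : ContinuousOn f2 Ω' :=
    sb.continuousOn.comp (hfc.comp sa.continuousOn ham) fun x hx => hfm _ (ham x hx)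
  have hf2m : ∀ x ∈ Ω', f2 x ∈ Λ' := fun x hx => hbm _ (hfm _ (ham x hx))
  have cDβ : ContinuousOn (fderiv ℝ β) Λ' := sβ.continuousOn_fderiv_of_isOpen hΛ' (by simp)
  have cDb : ContinuousOn (fderiv ℝ b) Λ := sb.continuousOn_fderiv_of_isOpen hΛ.1 (by simp)
  have cDa : ContinuousOn (fderiv ℝ a) Ω' := sa.continuousOn_fderiv_of_isOpen hΩ' (by simp)
  have cDα : ContinuousOn (fderiv ℝ α) Ω := sα.continuousOn_fderiv_of_isOpen hΩ.1 (by simp)
  -- constants
  set vΩ : ℝ := (volume Ω).toReal with hvΩ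
  have hvt : volume Ω ≠ ⊤ := PK.volume_ne_top_of_domain hΩ
  have hv0 : 0 ≤ vΩ := ENNReal.toReal_nonneg
  set IF : ℝ≥0∞ := ∫⁻ z in Ω, ENNReal.ofReal (‖cl (F z)‖ ^ p) with hIF
  have hIFt : IF ≠ ⊤ := by
    have h1 := PK.IsSob.lintegral_ne_top hp hF
    rw [hIF]
    simp_rw [ofReal_norm_rpow hp0]
    exact h1
  set RF : ℝ := IF.toReal with hRF
  have hRF0 : 0 ≤ RF := ENNReal.toReal_nonneg
  set K : ℝ := 2 ^ p with hK
  have hK0 : 0 < K := by positivity
  set s₀ : ℝ := min 1 (ε / (3 * (vΩ + 1))) with hs₀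
  have hs₀0 : 0 < s₀ := lt_min one_pos (by positivity)
  set η : ℝ := min 1 (ε / (9 * K * (RF + 1))) with hη
  have hη0 : 0 < η := lt_min one_pos (by positivity)
  set M : ℝ := 9 * K / ε with hM
  have hM0 : 0 < M := by positivity
  -- the accuracy
  set s : V → ℝ := fun x => min (σ₀ (a x)) s₀ with hs
  have hsc : ContinuousOn s Ω' := (hσ₀.comp sa.continuousOn ham).inf continuousOn_const
  have hs0 : ∀ x ∈ Ω', 0 < s x := fun x hx => lt_min (hσ₀0 _ (ham x hx)) hs₀0
  set t : V → ℝ := fun x => min 1 (η / (1 + ‖fderiv ℝ b (f (a x))‖)) with ht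
  have hBc : ContinuousOn (fun x => ‖fderiv ℝ b (f (a x))‖) Ω' :=
    (cDb.comp (hfc.comp sa.continuousOn ham) fun x hx => hfm _ (ham x hx)).norm
  have htc : ContinuousOn t Ω' := by
    refine continuousOn_const.inf (continuousOn_const.div (continuousOn_const.add hBc) ?_)
    intro x _
    positivity
  have ht0 : ∀ x, 0 < t x := fun x => lt_min one_pos (by positivity)
  set O : Set (V × V) := {q | q.1 ∈ Ω' ∧ q.2 ∈ Λ' ∧ ‖β q.2 - β (f2 q.1)‖ < s q.1 ∧
    ‖fderiv ℝ β q.2 - fderiv ℝ β (f2 q.1)‖ < t q.1} with hO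
  have hOo : IsOpen O := by
    rw [isOpen_iff_mem_nhds]
    rintro ⟨x, y⟩ ⟨hx, hy, h1, h2⟩
    have t1 : Tendsto (fun q : V × V => q.1) (𝓝 (x, y)) (𝓝 x) := continuous_fst.tendsto (x, y)
    have t2 : Tendsto (fun q : V × V => q.2) (𝓝 (x, y)) (𝓝 y) := continuous_snd.tendsto (x, y)
    have f1 := (hf2c.continuousAt (hΩ'.mem_nhds hx)).tendsto.comp t1
    have g1 := (sβ.continuousOn.continuousAt (hΛ'.mem_nhds (hf2m x hx))).tendsto.comp f1
    have g2 := (sβ.continuousOn.continuousAt (hΛ'.mem_nhds hy)).tendsto.comp t2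
    have d1 := (cDβ.continuousAt (hΛ'.mem_nhds (hf2m x hx))).tendsto.comp f1
    have d2 := (cDβ.continuousAt (hΛ'.mem_nhds hy)).tendsto.comp t2
    have s1 := (hsc.continuousAt (hΩ'.mem_nhds hx)).tendsto.comp t1
    have s2 := (htc.continuousAt (hΩ'.mem_nhds hx)).tendsto.comp t1
    filter_upwards [t1.eventually (hΩ'.mem_nhds hx), t2.eventually (hΛ'.mem_nhds hy),
      ((g2.sub g1).norm).eventually_lt s1 h1,
      ((d2.sub d1).norm).eventually_lt s2 h2] with q a1 a2 a3 a4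
    exact ⟨a1, a2, a3, a4⟩
  obtain ⟨σ, hσc, hσ0, hσ⟩ := exists_modulus hOo hf2c (fun x hx => by
    refine ⟨hx, hf2m x hx, ?_, ?_⟩
    · simp only [sub_self, norm_zero]; exact hs0 x hx
    · simp only [sub_self, norm_zero]; exact ht0 x)
  -- the weight
  set C : V → ℝ := fun x => ‖fderiv ℝ β (f2 x)‖ + 1 with hC
  have hCc : ContinuousOn C Ω' := (cDβ.comp hf2c hf2m).norm.add continuousOn_const
  have hC0 : ∀ x, 0 < C x := fun x => by positivity
  set w : V → ℝ := fun x => M * ((C x * ‖fderiv ℝ α (a x)‖) ^ p * |(fderiv ℝ a x).det|) with hw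
  have hwc : ContinuousOn w Ω' := by
    refine continuousOn_const.mul (ContinuousOn.mul ?_ ?_)
    · exact (hCc.mul (cDα.comp sa.continuousOn ham).norm).rpow_const fun x _ => Or.inr hp0
    · exact (ContinuousLinearMap.continuous_det.comp_continuousOn cDa).abs
  have hw0 : ∀ x ∈ Ω', 0 ≤ w x := fun x _ => by
    have := hC0 x
    positivity
  obtain ⟨g, hg, hgσ, hgE⟩ := hW σ w hσc hσ0 hwc hw0
  have sg : ContDiffOn ℝ ∞ g Ω' := diffeo_smooth hg
  have hgm : ∀ x ∈ Ω', g x ∈ Λ' := fun x hx => diffeo_maps hg hx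
  have hgO : ∀ x ∈ Ω', (x, g x) ∈ O := fun x hx => hσ x hx _ (hgσ x hx)
  set P : V → V := fun z => β (g (α z)) with hP
  have hPD : St.IsDiffeo Ω Λ P := isDiffeo_comp (isDiffeo_comp hαD hg) hβD
  have hαm : ∀ z ∈ Ω, α z ∈ Ω' := fun z hz => (hαi.2 z hz).1
  have haα : ∀ z ∈ Ω, a (α z) = z := fun z hz => (hαi.2 z hz).2
  have hβb : ∀ y ∈ Λ, β (b y) = y := fun y hy => (hβi.1 y hy).2
  have hclose : ∀ z ∈ Ω, ‖P z - f z‖ < s (α z) := by
    intro z hz
    have h1 := (hgO _ (hαm z hz)).2.2.1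
    have h2 : β (f2 (α z)) = f z := by
      simp only [hf2]
      rw [haα z hz, hβb _ (hfm z hz)]
    simp only [h2] at h1
    exact h1
  refine ⟨P, hPD, fun x hx => ?_, ?_⟩
  · refine (hclose x hx).le.trans ((min_le_left _ _).trans ?_)
    rw [haα x hx]
  -- the derivative
  have hPd : ∀ z ∈ Ω, fderiv ℝ P z = (fderiv ℝ β (g (α z))).comp
      ((fderiv ℝ g (α z)).comp (fderiv ℝ α z)) := by
    intro z hz
    have h1 := diffeo_diff hΩ.1 sα hz
    have h2 := diffeo_diff hΩ' sg (hαm z hz)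
    have h3 := diffeo_diff hΛ' sβ (hgm _ (hαm z hz))
    exact (h3.comp z (h2.comp z h1)).fderiv
  have hpt : ∀ z ∈ Ω, ‖fderiv ℝ P z - cl (F z)‖ ≤ C (α z) * ‖fderiv ℝ α z‖ *
      ‖fderiv ℝ g (α z) - cl (chF f F a b (α z))‖ + η * ‖cl (F z)‖ := by
    intro z hz
    rw [hPd z hz]
    have hx := hαm z hz
    have hO1 := (hgO _ hx).2.2.2
    simp only at hO1
    refine op_bound (D0 := fderiv ℝ β (f2 (α z))) (A0 := fderiv ℝ a (α z))
      (Bd := fderiv ℝ b (f (a (α z)))) ?_ ?_ ?_ ?_ ?_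
    · exact fderiv_inv_comp hΛ.1 hΛ' hβi sb sβ (by rw [haα z hz]; exact hfm z hz)
    · exact fderiv_inv_comp hΩ.1 hΩ' hαi' sα sa hz
    · rw [cl_chF, haα z hz]
    · have h4 : ‖fderiv ℝ β (g (α z))‖ ≤ ‖fderiv ℝ β (f2 (α z))‖ +
          ‖fderiv ℝ β (g (α z)) - fderiv ℝ β (f2 (α z))‖ := by
        have := norm_add_le (fderiv ℝ β (f2 (α z)))
          (fderiv ℝ β (g (α z)) - fderiv ℝ β (f2 (α z)))
        rwa [add_sub_cancel] at this
      refine h4.trans (add_le_add le_rfl (hO1.le.trans (min_le_left _ _)))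
    · have h5 : 0 < 1 + ‖fderiv ℝ b (f (a (α z)))‖ := by positivity
      calc ‖fderiv ℝ β (g (α z)) - fderiv ℝ β (f2 (α z))‖ * ‖fderiv ℝ b (f (a (α z)))‖
          ≤ η / (1 + ‖fderiv ℝ b (f (a (α z)))‖) * (1 + ‖fderiv ℝ b (f (a (α z)))‖) := by
            gcongr
            · exact hO1.le.trans (min_le_right _ _)
            · linarith
        _ = η := by field_simp
  -- the integrals
  have hI0 : ∫⁻ z in Ω, ENNReal.ofReal (‖P z - f z‖ ^ p) ≤ ENNReal.ofReal (ε / 3) := by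
    calc ∫⁻ z in Ω, ENNReal.ofReal (‖P z - f z‖ ^ p)
        ≤ ∫⁻ _ in Ω, ENNReal.ofReal s₀ := by
          refine setLIntegral_mono' hΩ.1.measurableSet fun z hz => ENNReal.ofReal_le_ofReal ?_
          have h1 : ‖P z - f z‖ ≤ s₀ := (hclose z hz).le.trans (min_le_right _ _)
          calc ‖P z - f z‖ ^ p ≤ s₀ ^ p := Real.rpow_le_rpow (norm_nonneg _) h1 hp0
            _ ≤ s₀ ^ (1 : ℝ) :=
              Real.rpow_le_rpow_of_exponent_ge hs₀0 (min_le_left _ _) hp
            _ = s₀ := Real.rpow_one _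
      _ = ENNReal.ofReal (s₀ * vΩ) := by
          rw [setLIntegral_const, ENNReal.ofReal_mul hs₀0.le, hvΩ, ENNReal.ofReal_toReal hvt]
      _ ≤ _ := by
          apply ENNReal.ofReal_le_ofReal
          calc s₀ * vΩ ≤ ε / (3 * (vΩ + 1)) * (vΩ + 1) := by
                gcongr
                · exact min_le_right _ _
                · linarith
            _ = ε / 3 := by field_simp
  have hI1 : ∫⁻ z in Ω, ENNReal.ofReal (K * ((C (α z) * ‖fderiv ℝ α z‖) ^ p *
      ‖fderiv ℝ g (α z) - cl (chF f F a b (α z))‖ ^ p)) ≤ ENNReal.ofReal (K / M) := by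
    have himg : a '' Ω' = Ω := by
      ext z
      constructor
      · rintro ⟨x, hx, rfl⟩
        exact ham x hx
      · exact fun hz => ⟨α z, hαm z hz, haα z hz⟩
    have hinj : InjOn a Ω' := by
      intro x hx y hy hxy
      rw [← (hαi.1 x hx).2, ← (hαi.1 y hy).2, hxy]
    have hcv := lintegral_image_eq_lintegral_abs_det_fderiv_mul volume hΩ'.measurableSet
      (fun x hx => (diffeo_diff hΩ' sa hx).hasFDerivWithinAt) hinj
      (fun z => ENNReal.ofReal (K * ((C (α z) * ‖fderiv ℝ α z‖) ^ p *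
        ‖fderiv ℝ g (α z) - cl (chF f F a b (α z))‖ ^ p)))
    rw [himg] at hcv
    rw [hcv]
    calc ∫⁻ x in Ω', ENNReal.ofReal |(fderiv ℝ a x).det| *
          ENNReal.ofReal (K * ((C (α (a x)) * ‖fderiv ℝ α (a x)‖) ^ p *
            ‖fderiv ℝ g (α (a x)) - cl (chF f F a b (α (a x)))‖ ^ p))
        = ∫⁻ x in Ω', ENNReal.ofReal (K / M) * (ENNReal.ofReal (w x) *
          ENNReal.ofReal (‖fderiv ℝ g x - cl (chF f F a b x)‖ ^ p)) := by
          refine setLIntegral_congr_fun hΩ'.measurableSet fun x hx => ?_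
          rw [(hαi.1 x hx).2, ← ENNReal.ofReal_mul (abs_nonneg _),
            ← ENNReal.ofReal_mul (hw0 x hx), ← ENNReal.ofReal_mul (by positivity)]
          congr 1
          simp only [hw]
          field_simp
      _ = ENNReal.ofReal (K / M) * ∫⁻ x in Ω', ENNReal.ofReal (w x) *
          ENNReal.ofReal (‖fderiv ℝ g x - cl (chF f F a b x)‖ ^ p) :=
          lintegral_const_mul' _ _ ENNReal.ofReal_ne_top
      _ ≤ ENNReal.ofReal (K / M) * 1 := by gcongr
      _ = _ := mul_one _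
  have hmF : AEMeasurable (fun z => ENNReal.ofReal (K * (η ^ p * ‖cl (F z)‖ ^ p)))
      (volume.restrict Ω) :=
    ((((PK.IsSob.aesm hF).aemeasurable.norm.pow_const p).const_mul _).const_mul _).ennreal_ofReal
  have hI2 : ∫⁻ z in Ω, ENNReal.ofReal (K * (η ^ p * ‖cl (F z)‖ ^ p)) ≤
      ENNReal.ofReal (ε / 9) := by
    calc ∫⁻ z in Ω, ENNReal.ofReal (K * (η ^ p * ‖cl (F z)‖ ^ p))
        = ∫⁻ z in Ω, ENNReal.ofReal (K * η ^ p) * ENNReal.ofReal (‖cl (F z)‖ ^ p) := by
          refine lintegral_congr fun z => ?_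
          rw [← ENNReal.ofReal_mul (by positivity), mul_assoc]
      _ = ENNReal.ofReal (K * η ^ p) * IF := lintegral_const_mul' _ _ ENNReal.ofReal_ne_top
      _ = ENNReal.ofReal (K * η ^ p * RF) := by
          rw [ENNReal.ofReal_mul (p := K * η ^ p) (q := RF) (by positivity), hRF,
            ENNReal.ofReal_toReal hIFt]
      _ ≤ _ := by
          apply ENNReal.ofReal_le_ofReal
          have h1 : η ^ p ≤ η := by
            calc η ^ p ≤ η ^ (1 : ℝ) := Real.rpow_le_rpow_of_exponent_ge hη0 (min_le_left _ _) hp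
              _ = η := Real.rpow_one _
          calc K * η ^ p * RF ≤ K * (ε / (9 * K * (RF + 1))) * (RF + 1) := by
                gcongr
                · exact h1.trans (min_le_right _ _)
                · linarith
            _ = ε / 9 := by field_simp
  have hIj : ∀ j, ∫⁻ z in Ω, ENNReal.ofReal (‖fderiv ℝ P z (ev j) - cl (F z) (ev j)‖ ^ p) ≤
      ENNReal.ofReal (ε / 9) + ENNReal.ofReal (ε / 9) := by
    intro j
    calc ∫⁻ z in Ω, ENNReal.ofReal (‖fderiv ℝ P z (ev j) - cl (F z) (ev j)‖ ^ p)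
        ≤ ∫⁻ z in Ω, (ENNReal.ofReal (K * ((C (α z) * ‖fderiv ℝ α z‖) ^ p *
            ‖fderiv ℝ g (α z) - cl (chF f F a b (α z))‖ ^ p)) +
            ENNReal.ofReal (K * (η ^ p * ‖cl (F z)‖ ^ p))) := by
          refine setLIntegral_mono' hΩ.1.measurableSet fun z hz => ?_
          have hCz := hC0 (α z)
          rw [← ENNReal.ofReal_add (by positivity) (by positivity)]
          apply ENNReal.ofReal_le_ofReal
          have h1 : ‖fderiv ℝ P z (ev j) - cl (F z) (ev j)‖ ≤ ‖fderiv ℝ P z - cl (F z)‖ := by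
            have := (fderiv ℝ P z - cl (F z)).le_opNorm (ev j)
            rw [nev, mul_one] at this
            exact this
          have h2 := h1.trans (hpt z hz)
          calc ‖fderiv ℝ P z (ev j) - cl (F z) (ev j)‖ ^ p
              ≤ (C (α z) * ‖fderiv ℝ α z‖ *
                ‖fderiv ℝ g (α z) - cl (chF f F a b (α z))‖ + η * ‖cl (F z)‖) ^ p :=
                Real.rpow_le_rpow (norm_nonneg _) h2 hp0
            _ ≤ _ := add_rpow_le' hp0 (by positivity) (by positivity)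
            _ = _ := by
              rw [Real.mul_rpow (by positivity) (by positivity),
                Real.mul_rpow hη0.le (by positivity)]
      _ = (∫⁻ z in Ω, ENNReal.ofReal (K * ((C (α z) * ‖fderiv ℝ α z‖) ^ p *
            ‖fderiv ℝ g (α z) - cl (chF f F a b (α z))‖ ^ p))) +
            ∫⁻ z in Ω, ENNReal.ofReal (K * (η ^ p * ‖cl (F z)‖ ^ p)) :=
          lintegral_add_right' _ hmF
      _ ≤ _ := by
          refine add_le_add (hI1.trans (le_of_eq ?_)) hI2
          congr 1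
          rw [hM]
          field_simp
  calc err p Ω f F P ≤ ENNReal.ofReal (ε / 3) +
        ∑ _j : Fin 3, (ENNReal.ofReal (ε / 9) + ENNReal.ofReal (ε / 9)) :=
        add_le_add hI0 (Finset.sum_le_sum fun j _ => hIj j)
    _ = ENNReal.ofReal ε := by
        rw [← ENNReal.ofReal_add (by positivity) (by positivity), Finset.sum_const,
          Finset.card_univ, Fintype.card_fin, nsmul_eq_mul, ← ENNReal.ofReal_natCast,
          ← ENNReal.ofReal_mul (by positivity), ← ENNReal.ofReal_add (by positivity) (by positivity)]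
        congr 1
        push_cast
        ring

end Vale.Agent.P073.R2.H655
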