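import Vale.Agent.P073.R2.H655.TGlue
import Vale.Agent.P073.R2.H669.TPart

/-!
# P073: smooth approximation of the third component, increasing along the fibres
-/

namespace Vale.Agent.P073.R2.H655

open Set Filter Topology Vale.Agent.P073.St
open Vale.Agent.P073.R2.H580 (cr LocUp Ind SpecL3)
open scoped ContDiff

/-- **Row L3: gluing** -/
theorem specL3 : SpecL3 := by
  intro Ω Λ f hΩ hΛ hf hi hloc δ hδ hδ0
  choose! N hNo haN hNΩ hup using hloc
  obtain ⟨h, ⟨hfh, hhf⟩, hfc, hhc⟩ := id hf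
  have himg : ∀ a : Ω, f '' N a = Λ ∩ h ⁻¹' N a := by
    intro a
    ext y
    constructor
    · rintro ⟨x, hx, rfl⟩
      have h1 := hfh x (hNΩ a a.2 hx)
      exact ⟨h1.1, show h (f x) ∈ N a by rw [h1.2]; exact hx⟩
    · rintro ⟨hy, hx⟩
      exact ⟨h y, hx, (hhf y hy).2⟩
  obtain ⟨J, idx, χ, O, h1, h2, h3, h4, h5, h6, h7, h8⟩ :=
    Vale.Agent.P073.R2.H669.exists_tpart hΛ (fun a : Ω => f '' N a)
      (fun a => by
        rw [himg a]
        exact hhc.isOpen_inter_preimage hΛ (hNo a a.2))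
      (fun a => by
        rw [himg a]
        exact inter_subset_left)
      (fun y hy => mem_iUnion.2 ⟨⟨h y, (hhf y hy).1⟩, h y, haN _ (hhf y hy).1, (hhf y hy).2⟩)
  exact tglue hΩ hΛ hf hi (N := fun j => N (idx j)) (fun j => hNo _ (idx j).2)
    (fun j => hNΩ _ (idx j).2) (fun j => hup _ (idx j).2) h1 h2 h3 h4 h5 h6 h7 h8 hδ hδ0

end Vale.Agent.P073.R2.H655
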