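import Vale.Agent.P073.R2.H580.SpecT
import Mathlib.Analysis.Calculus.ContDiff.Convolution

/-!
# P073: primitives in the third variable
-/

namespace Vale.Agent.P073.R2.H655

open MeasureTheory Set Filter Topology Metric Vale.Agent.P073.St
open Vale.Agent.P073.R2.H580 (eb)
open scoped ContDiff Convolution

/-- the point `y` with the third coordinate `r` -/
def up (y : V) (r : ℝ) : V := ![y 0, y 1, r]

@[simp] theorem up_zero (y : V) (r : ℝ) : up y r 0 = y 0 := rfl
@[simp] theorem up_one (y : V) (r : ℝ) : up y r 1 = y 1 := rfl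
@[simp] theorem up_two (y : V) (r : ℝ) : up y r 2 = r := rfl

theorem up_self (y : V) : up y (y 2) = y := by
  funext j
  fin_cases j <;> rfl

theorem up_up (y : V) (r s : ℝ) : up (up y r) s = up y s := rfl

theorem up_contDiff : ContDiff ℝ ∞ (fun q : V × ℝ => up q.1 q.2) := by
  rw [contDiff_pi]
  intro j
  fin_cases j
  · exact (contDiff_pi.1 (contDiff_fst (𝕜 := ℝ) (E := V) (F := ℝ)) 0 :)
  · exact (contDiff_pi.1 (contDiff_fst (𝕜 := ℝ) (E := V) (F := ℝ)) 1 :)
  · exact contDiff_snd

theorem up_continuous (y : V) : Continuous (up y) :=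
  up_contDiff.continuous.comp (by fun_prop : Continuous fun r : ℝ => (y, r))

/-- the primitive of `χ` in the third variable -/
noncomputable def Pr (χ : V → ℝ) (y : V) : ℝ := ∫ r in Iic (y 2), χ (up y r)

variable {χ : V → ℝ}

theorem bdd_supp (hc : HasCompactSupport χ) : ∃ R : ℝ, ∀ (y : V) (r : ℝ), r ∉ Icc (-R) R →
    χ (up y r) = 0 := by
  obtain ⟨R, hR⟩ := hc.isCompact.isBounded.subset_closedBall (0 : V)
  refine ⟨R, fun y r hr => ?_⟩
  by_contra hne
  apply hr
  have h1 : up y r ∈ closedBall (0 : V) R := hR (subset_tsupport _ hne)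
  rw [mem_closedBall_zero_iff] at h1
  have h2 : ‖up y r 2‖ ≤ R := (norm_le_pi_norm _ _).trans h1
  rw [up_two, Real.norm_eq_abs] at h2
  exact abs_le.1 h2

theorem integrable_up (hχ : ContDiff ℝ ∞ χ) (hc : HasCompactSupport χ) (y : V) :
    Integrable fun r => χ (up y r) := by
  obtain ⟨R, hR⟩ := bdd_supp hc
  refine (hχ.continuous.comp (up_continuous y)).integrable_of_hasCompactSupport ?_
  exact HasCompactSupport.intro isCompact_Icc fun r hr => hR y r hr

theorem Pr_contDiff (hχ : ContDiff ℝ ∞ χ) (hc : HasCompactSupport χ) : ContDiff ℝ ∞ (Pr χ) := by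
  obtain ⟨R, hR⟩ := bdd_supp hc
  set I : ℝ → ℝ := (Ici (0 : ℝ)).indicator fun _ => 1 with hI
  have hI1 : LocallyIntegrable I := (locallyIntegrable_const (1 : ℝ)).indicator measurableSet_Ici
  have h1 := contDiffOn_convolution_right_with_param (μ := (volume : Measure ℝ)) (n := ⊤)
    (ContinuousLinearMap.mul ℝ ℝ) (isOpen_univ (X := V)) (isCompact_Icc (a := -R) (b := R))
    (g := fun (p : V) (r : ℝ) => χ (up p r)) (fun p x _ hx => hR p x hx) hI1
    ((hχ.comp up_contDiff).contDiffOn)
  rw [univ_prod_univ, contDiffOn_univ] at h1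
  have h2 : ContDiff ℝ ∞ (fun y : V => (y, y 2)) :=
    contDiff_id.prodMk (contDiff_apply ℝ ℝ (2 : Fin 3))
  have h3 := h1.comp h2
  convert h3 using 1
  funext y
  show Pr χ y = ∫ t, (ContinuousLinearMap.mul ℝ ℝ) (I t) (χ (up y (y 2 - t)))
  have h4 : (fun t => (ContinuousLinearMap.mul ℝ ℝ) (I t) (χ (up y (y 2 - t)))) =
      fun t => (fun r => (Iic (y 2)).indicator (fun r => χ (up y r)) r) (y 2 - t) := by
    funext t
    simp only [ContinuousLinearMap.mul_apply', hI]
    by_cases ht : 0 ≤ t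
    · rw [indicator_of_mem (show t ∈ Ici (0 : ℝ) from ht),
        indicator_of_mem (show y 2 - t ∈ Iic (y 2) from by simp [ht]), one_mul]
    · rw [indicator_of_notMem (show t ∉ Ici (0 : ℝ) from ht),
        indicator_of_notMem (show y 2 - t ∉ Iic (y 2) from by simpa using ht), zero_mul]
  rw [h4, integral_sub_left_eq_self (fun r => (Iic (y 2)).indicator (fun r => χ (up y r)) r)
    volume (y 2), integral_indicator measurableSet_Iic]
  rfl

theorem Pr_sub (hχ : ContDiff ℝ ∞ χ) (hc : HasCompactSupport χ) (y : V) (s t : ℝ) :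
    Pr χ (up y t) - Pr χ (up y s) = ∫ r in s..t, χ (up y r) :=
  intervalIntegral.integral_Iic_sub_Iic (integrable_up hχ hc y).integrableOn
    (integrable_up hχ hc y).integrableOn

theorem Pr_fderiv (hχ : ContDiff ℝ ∞ χ) (hc : HasCompactSupport χ) (y : V) :
    fderiv ℝ (Pr χ) y (eb 2) = χ y := by
  have h1 : HasDerivAt (fun s => Pr χ (up y s)) (χ (up y (y 2))) (y 2) := by
    have h2 : (fun s => Pr χ (up y s)) = fun s => Pr χ (up y (y 2)) + ∫ r in (y 2)..s, χ (up y r) := by
      funext s
      rw [← Pr_sub hχ hc]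
      ring
    rw [h2]
    have h3 : Continuous fun r => χ (up y r) := hχ.continuous.comp (up_continuous y)
    exact (intervalIntegral.integral_hasDerivAt_right (h3.intervalIntegrable _ _)
      h3.stronglyMeasurable.stronglyMeasurableAtFilter h3.continuousAt).const_add _
  have h4 : HasDerivAt (fun s => up y s) (eb 2) (y 2) := by
    rw [hasDerivAt_pi]
    intro j
    fin_cases j
    · exact hasDerivAt_const _ _
    · exact hasDerivAt_const _ _
    · exact hasDerivAt_id _
  have h5 : HasFDerivAt (Pr χ) (fderiv ℝ (Pr χ) (up y (y 2))) (up y (y 2)) :=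
    ((Pr_contDiff hχ hc).differentiable (by simp) _).hasFDerivAt
  have h6 := h5.comp_hasDerivAt (y 2) h4
  have h7 := h1.unique h6
  rw [up_self] at h7
  exact h7.symm

end Vale.Agent.P073.R2.H655
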