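import Vale.Agent.P073.R2.H655.Prim
import Vale.Agent.P073.R2.H268.LTwo

/-!
# P073: gluing approximations of the third component in the target
-/

namespace Vale.Agent.P073.R2.H655

open MeasureTheory Set Filter Topology Metric Vale.Agent.P073.St
open Vale.Agent.P073.R2.H580 (eb cr LocUp Ind)
open Vale.Agent.P073.R2.H268 (cr_kills)
open scoped ContDiff

theorem finite_meet {J : Type} {Λ : Set V} {O : J → Set V}
    (hlf : ∀ x ∈ Λ, ∃ t ∈ 𝓝 x, {j | (O j ∩ t).Nonempty}.Finite) {K : Set V} (hK : IsCompact K)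
    (hKΛ : K ⊆ Λ) : {k | (closure (O k) ∩ K).Nonempty}.Finite := by
  choose! t ht hfin using hlf
  obtain ⟨s, hs, hcov⟩ := hK.elim_nhds_subcover (fun x => interior (t x))
    fun x hx => interior_mem_nhds.2 (ht x (hKΛ hx))
  refine (s.finite_toSet.biUnion fun x hx => hfin x (hKΛ (hs x hx))).subset ?_
  rintro k ⟨y, hy, hyK⟩
  obtain ⟨x, hx, hyx⟩ := mem_iUnion₂.1 (hcov hyK)
  obtain ⟨z, hz, hzO⟩ := mem_closure_iff.1 hy _ isOpen_interior hyx
  exact mem_iUnion₂.2 ⟨x, hx, z, hzO, interior_subset hz⟩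

theorem exists_weights {J : Type} {Λ : Set V} {O : J → Set V}
    (hlf : ∀ x ∈ Λ, ∃ t ∈ 𝓝 x, {j | (O j ∩ t).Nonempty}.Finite)
    (hc : ∀ j, IsCompact (closure (O j))) (hcl : ∀ j, closure (O j) ⊆ Λ) :
    ∃ c : J → ℝ, (∀ j, 0 < c j) ∧ ∀ (y : V) (F : Finset J), (∀ j ∈ F, y ∈ closure (O j)) →
      ∑ j ∈ F, c j ≤ 1 / 2 := by
  have hfin := fun j => finite_meet hlf (hc j) (hcl j)
  set S : J → Set J := fun j => {k | (closure (O k) ∩ closure (O j)).Nonempty} with hS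
  refine ⟨fun j => 1 / (2 * ((S j).ncard + 1)), fun j => by positivity, fun y F hF => ?_⟩
  have h1 : ∀ j ∈ F, (1 : ℝ) / (2 * ((S j).ncard + 1)) ≤ 1 / (2 * (F.card + 1)) := by
    intro j hj
    have h2 : F.card ≤ (S j).ncard := by
      rw [← Set.ncard_coe_finset]
      exact Set.ncard_le_ncard (fun k hk => ⟨y, hF k hk, hF j hj⟩) (hfin j)
    have h3 : (F.card : ℝ) ≤ (S j).ncard := by exact_mod_cast h2
    exact one_div_le_one_div_of_le (by positivity) (by linarith)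
  refine (Finset.sum_le_sum h1).trans ?_
  rw [Finset.sum_const, nsmul_eq_mul, mul_one_div, div_le_div_iff₀ (by positivity) (by norm_num)]
  linarith

theorem fd {χ : V → ℝ} (hχ : ContDiff ℝ ∞ χ) (hc : HasCompactSupport χ) {a b l : V → ℝ} {x v : V}
    (ha : DifferentiableAt ℝ a x) (hb : DifferentiableAt ℝ b x) (hl : DifferentiableAt ℝ l x)
    (ha0 : fderiv ℝ a x v = 0) (hb0 : fderiv ℝ b x v = 0) :
    ∃ L : V →L[ℝ] ℝ, HasFDerivAt (fun z => Pr χ ![a z, b z, l z]) L x ∧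
      L v = χ ![a x, b x, l x] * fderiv ℝ l x v := by
  have h1 : HasFDerivAt (fun z => (![a z, b z, l z] : V))
      (ContinuousLinearMap.pi ![fderiv ℝ a x, fderiv ℝ b x, fderiv ℝ l x]) x := by
    rw [hasFDerivAt_pi']
    intro j
    fin_cases j
    · exact ha.hasFDerivAt
    · exact hb.hasFDerivAt
    · exact hl.hasFDerivAt
  have h2 : HasFDerivAt (Pr χ) (fderiv ℝ (Pr χ) ![a x, b x, l x]) ![a x, b x, l x] :=
    ((Pr_contDiff hχ hc).differentiable (by simp) _).hasFDerivAt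
  have h4 : HasFDerivAt (fun z => Pr χ ![a z, b z, l z]) _ x :=
    HasFDerivAt.comp (g := Pr χ) (f := fun z => (![a z, b z, l z] : V)) x h2 h1
  refine ⟨_, h4, ?_⟩
  have h3 : (ContinuousLinearMap.pi ![fderiv ℝ a x, fderiv ℝ b x, fderiv ℝ l x] : V →L[ℝ] V) v =
      (fderiv ℝ l x v) • eb 2 := by
    funext j
    fin_cases j
    · show fderiv ℝ a x v = _
      rw [ha0]
      simp [eb]
    · show fderiv ℝ b x v = _
      rw [hb0]
      simp [eb]
    · show fderiv ℝ l x v = _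
      simp [eb]
  rw [ContinuousLinearMap.comp_apply, h3, map_smul, Pr_fderiv hχ hc, smul_eq_mul, mul_comm]

/-- **gluing in the target** -/
theorem tglue {Ω Λ : Set V} {f : V → V} (hΩ : IsOpen Ω) (hΛ : IsOpen Λ) (hf : IsHomeo Ω Λ f)
    (hi : Ind Ω f) {J : Type} {N : J → Set V} {χ : J → V → ℝ} {O : J → Set V}
    (hN : ∀ j, IsOpen (N j)) (hNΩ : ∀ j, N j ⊆ Ω) (hup : ∀ j, LocUp f (N j))
    (hχ : ∀ j, ContDiff ℝ ∞ (χ j)) (hpos : ∀ j x, 0 ≤ χ j x) (hO : ∀ j, IsOpen (O j))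
    (hs : ∀ j, tsupport (χ j) ⊆ O j) (hc : ∀ j, IsCompact (closure (O j)))
    (hcl : ∀ j, closure (O j) ⊆ f '' N j)
    (hlf : ∀ x ∈ Λ, ∃ t ∈ 𝓝 x, {j | (O j ∩ t).Nonempty}.Finite)
    (hsum : ∀ x ∈ Λ, ∑ᶠ j, χ j x = 1)
    {δ : V → ℝ} (hδ : ContinuousOn δ Ω) (hδ0 : ∀ x ∈ Ω, 0 < δ x) :
    ∃ w : V → ℝ, ContDiffOn ℝ ∞ w Ω ∧ (∀ x ∈ Ω, |w x - f x 2| ≤ δ x) ∧
      ∀ x ∈ Ω, 0 < fderiv ℝ w x (cr f x) := by
  classical
  obtain ⟨h, ⟨hfh, hhf⟩, hfc, hhc⟩ := hf
  have hclΛ : ∀ j, closure (O j) ⊆ Λ := by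
    intro j y hy
    obtain ⟨x, hx, rfl⟩ := hcl j hy
    exact (hfh x (hNΩ j hx)).1
  have hmem : ∀ j, ∀ x ∈ Ω, f x ∈ closure (O j) → x ∈ N j := by
    intro j x hx hy
    obtain ⟨x', hx', he⟩ := hcl j hy
    have h1 := (hfh x hx).2
    rw [← he, (hfh x' (hNΩ j hx')).2] at h1
    exact h1 ▸ hx'
  have hcs : ∀ j, HasCompactSupport (χ j) := fun j =>
    (hc j).of_isClosed_subset (isClosed_tsupport _) ((hs j).trans subset_closure)
  obtain ⟨c, hc0, hcsum⟩ := exists_weights hlf hc hclΛ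
  -- the choice of the accuracy
  have hε : ∀ j, ∃ ε : ℝ, 0 < ε ∧ (∀ (y : V) (r : ℝ), |r - y 2| ≤ ε → up y r ∈ tsupport (χ j) →
      y ∈ O j) ∧ (∀ (y : V) (r : ℝ), |r - y 2| ≤ ε → |χ j (up y r) - χ j y| ≤ c j) ∧
      ∃ M : ℝ, 0 ≤ M ∧ (∀ y, |χ j y| ≤ M) ∧ ∀ x ∈ Ω, f x ∈ closure (O j) → M * ε ≤ c j * δ x := by
    intro j
    have hd : ∀ (y : V) (r : ℝ), dist y (up y r) ≤ |r - y 2| := by
      intro y r
      rw [dist_pi_le_iff (abs_nonneg _)]
      intro i
      fin_cases i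
      · simp [up]
      · simp [up]
      · show dist (y 2) r ≤ _
        rw [Real.dist_eq, abs_sub_comm]
    obtain ⟨e1, he1, h1⟩ := (hcs j).isCompact.exists_cthickening_subset_open (hO j) (hs j)
    obtain ⟨e2, he2, h2⟩ := Metric.uniformContinuous_iff.1
      ((hcs j).uniformContinuous_of_continuous (hχ j).continuous) (c j) (hc0 j)
    obtain ⟨M, hM⟩ := (hcs j).exists_bound_of_continuous (hχ j).continuous
    have hM0 : 0 ≤ M := (norm_nonneg _).trans (hM 0)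
    have hK : IsCompact (h '' closure (O j)) := (hc j).image_of_continuousOn (hhc.mono (hclΛ j))
    have hKΩ : h '' closure (O j) ⊆ Ω := by
      rintro _ ⟨y, hy, rfl⟩
      exact (hhf y (hclΛ j hy)).1
    obtain ⟨m, hm0, hm⟩ := hK.exists_forall_le' (hδ.mono hKΩ) (a := 0) fun x hx => hδ0 x (hKΩ hx)
    refine ⟨min (min e1 (e2 / 2)) (c j * m / (M + 1)), ?_, ?_, ?_, M, hM0, hM, ?_⟩
    · have := hc0 j
      positivity
    · intro y r hr hy
      exact h1 (mem_cthickening_of_dist_le y (up y r) e1 _ hy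
        ((hd y r).trans (hr.trans ((min_le_left _ _).trans (min_le_left _ _)))))
    · intro y r hr
      have h3 : dist (up y r) y < e2 := by
        rw [dist_comm]
        refine ((hd y r).trans (hr.trans ((min_le_left _ _).trans (min_le_right _ _)))).trans_lt ?_
        linarith
      exact (h2 h3).le
    · intro x hx hy
      have h3 : m ≤ δ x := hm x ⟨f x, hy, (hfh x hx).2⟩
      have h4 : min (min e1 (e2 / 2)) (c j * m / (M + 1)) ≤ c j * m / (M + 1) := min_le_right _ _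
      have h5 : M * (c j * m / (M + 1)) ≤ c j * m := by
        rw [mul_div_assoc', div_le_iff₀ (by positivity)]
        have := mul_pos (hc0 j) hm0
        nlinarith
      calc M * min (min e1 (e2 / 2)) (c j * m / (M + 1)) ≤ M * (c j * m / (M + 1)) :=
            mul_le_mul_of_nonneg_left h4 hM0
        _ ≤ c j * m := h5
        _ ≤ c j * δ x := mul_le_mul_of_nonneg_left h3 (hc0 j).le
  choose ε hε0 hεO hεc M hM0 hM hMδ using hε
  choose g hgs hgd hgc using fun j => hup j (ε j) (hε0 j)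
  set T : J → V → ℝ := fun j x => if x ∈ N j then Pr (χ j) (up (f x) (g j x)) - Pr (χ j) (f x)
    else 0 with hT
  have hTi : ∀ j, ∀ x ∈ N j, T j x = ∫ r in (f x 2)..(g j x), χ j (up (f x) r) := by
    intro j x hx
    rw [← Pr_sub (hχ j) (hcs j), up_self]
    exact if_pos hx
  -- the terms vanish outside of the sets
  have hTz : ∀ j x, T j x ≠ 0 → f x ∈ O j := by
    intro j x hne
    by_contra hx
    apply hne
    by_cases hxN : x ∈ N j
    · rw [hTi j x hxN]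
      refine intervalIntegral.integral_zero_ae (Eventually.of_forall fun r hr => ?_)
      by_contra hne'
      apply hx
      have h1 : |r - f x 2| ≤ ε j :=
        (abs_sub_left_of_mem_uIcc (uIoc_subset_uIcc hr)).trans (hgd j x hxN)
      exact hεO j (f x) r h1 (subset_tsupport _ hne')
    · exact if_neg hxN
  have hTb : ∀ j, ∀ x ∈ Ω, |T j x| ≤ c j * δ x := by
    intro j x hx
    by_cases h0 : T j x = 0
    · rw [h0, abs_zero]
      exact mul_nonneg (hc0 j).le (hδ0 x hx).le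
    · have h1 := subset_closure (hTz j x h0)
      have h2 := hmem j x hx h1
      rw [hTi j x h2]
      have h3 := intervalIntegral.norm_integral_le_of_norm_le_const (a := f x 2) (b := g j x)
        (f := fun r => χ j (up (f x) r)) (C := M j) fun r _ => hM j _
      refine h3.trans ((mul_le_mul_of_nonneg_left (hgd j x h2) (hM0 j)).trans (hMδ j x hx h1))
  -- the local representation
  have hloc : ∀ x₀ ∈ Ω, ∃ F : Finset J, (∀ j ∈ F, f x₀ ∈ closure (O j)) ∧
      ∑ j ∈ F, χ j (f x₀) = 1 ∧ (∀ᶠ x in 𝓝 x₀, f x 2 + ∑ᶠ j, T j x =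
        f x₀ 2 + ∑ j ∈ F, (Pr (χ j) (up (f x) (g j x)) - Pr (χ j) (up (f x) (f x₀ 2)))) ∧
      ∑ᶠ j, T j x₀ = ∑ j ∈ F, T j x₀ := by
    intro x₀ hx₀
    have hy₀ := (hfh x₀ hx₀).1
    obtain ⟨t, ht, hfin⟩ := hlf (f x₀) hy₀
    set F := hfin.toFinset.filter fun j => f x₀ ∈ closure (O j) with hF
    have hFcl : ∀ j ∈ F, f x₀ ∈ closure (O j) := fun j hj => (Finset.mem_filter.1 hj).2
    have hE : ∀ᶠ y in 𝓝 (f x₀), y ∈ Λ ∧ ∀ j, y ∈ O j → j ∈ F := by
      have h1 : ∀ᶠ y in 𝓝 (f x₀), ∀ j ∈ hfin.toFinset, f x₀ ∉ closure (O j) → y ∉ closure (O j) := by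
        rw [Filter.eventually_all_finset]
        intro j _
        by_cases h2 : f x₀ ∈ closure (O j)
        · exact Eventually.of_forall fun y hy => absurd h2 hy
        · filter_upwards [isClosed_closure.isOpen_compl.mem_nhds h2] with y hy _
          exact hy
      filter_upwards [h1, ht, hΛ.mem_nhds hy₀] with y h2 h3 h4
      refine ⟨h4, fun j hj => ?_⟩
      have h5 : j ∈ hfin.toFinset := hfin.mem_toFinset.2 ⟨y, hj, h3⟩
      refine Finset.mem_filter.2 ⟨h5, ?_⟩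
      by_contra h6
      exact h2 j h5 h6 (subset_closure hj)
    obtain ⟨ρ, hρ, hball⟩ := Metric.eventually_nhds_iff_ball.1 hE
    have hsumF : ∀ y ∈ ball (f x₀) ρ, ∑ j ∈ F, χ j y = 1 := by
      intro y hy
      rw [← hsum y (hball y hy).1]
      symm
      apply finsum_eq_sum_of_support_subset
      intro j hj
      exact (hball y hy).2 j (hs j (subset_tsupport _ hj))
    have hTF : ∀ x, f x ∈ ball (f x₀) ρ → ∑ᶠ j, T j x = ∑ j ∈ F, T j x := by
      intro x hx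
      apply finsum_eq_sum_of_support_subset
      intro j hj
      exact (hball _ hx).2 j (hTz j x hj)
    refine ⟨F, hFcl, hsumF _ (mem_ball_self hρ), ?_, hTF x₀ (mem_ball_self hρ)⟩
    have h1 : ∀ᶠ x in 𝓝 x₀, f x ∈ ball (f x₀) ρ :=
      (hfc.continuousAt (hΩ.mem_nhds hx₀)).eventually (ball_mem_nhds _ hρ)
    have h2 : ∀ᶠ x in 𝓝 x₀, ∀ j ∈ F, x ∈ N j := by
      rw [Filter.eventually_all_finset]
      intro j hj
      exact (hN j).mem_nhds (hmem j x₀ hx₀ (hFcl j hj))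
    filter_upwards [h1, h2] with x h3 h4
    rw [hTF x h3]
    have h5 : ∑ j ∈ F, T j x = ∑ j ∈ F, (Pr (χ j) (up (f x) (g j x)) - Pr (χ j) (f x)) :=
      Finset.sum_congr rfl fun j hj => if_pos (h4 j hj)
    have h6 : ∑ j ∈ F, (Pr (χ j) (f x) - Pr (χ j) (up (f x) (f x₀ 2))) = f x 2 - f x₀ 2 := by
      have h7 : ∀ j ∈ F, Pr (χ j) (f x) - Pr (χ j) (up (f x) (f x₀ 2)) =
          ∫ r in (f x₀ 2)..(f x 2), χ j (up (f x) r) := by
        intro j _
        rw [← Pr_sub (hχ j) (hcs j), up_self]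
      rw [Finset.sum_congr rfl h7, ← intervalIntegral.integral_finsetSum]
      · have h8 : ∫ r in (f x₀ 2)..(f x 2), ∑ j ∈ F, χ j (up (f x) r) =
            ∫ _ in (f x₀ 2)..(f x 2), (1 : ℝ) := by
          refine intervalIntegral.integral_congr fun r hr => hsumF _ ?_
          rw [mem_ball, dist_pi_lt_iff hρ] at h3 ⊢
          intro i
          fin_cases i
          · exact h3 0
          · exact h3 1
          · show dist r (f x₀ 2) < ρ
            rw [Real.dist_eq]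
            exact (abs_sub_left_of_mem_uIcc hr).trans_lt (h3 2)
        rw [h8, intervalIntegral.integral_const, smul_eq_mul, mul_one]
      · intro j _
        exact ((hχ j).continuous.comp (up_continuous _)).intervalIntegrable _ _
    rw [h5]
    rw [Finset.sum_sub_distrib] at h6 ⊢
    rw [Finset.sum_sub_distrib]
    linarith
  refine ⟨fun x => f x 2 + ∑ᶠ j, T j x, fun x₀ hx₀ => ?_, fun x₀ hx₀ => ?_, fun x₀ hx₀ => ?_⟩
  · obtain ⟨F, hF, _, hev, _⟩ := hloc x₀ hx₀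
    refine ContDiffAt.contDiffWithinAt (ContDiffAt.congr_of_eventuallyEq ?_ hev)
    refine contDiffAt_const.add (ContDiffAt.sum fun j hj => ContDiffAt.sub ?_ ?_)
    · refine (Pr_contDiff (hχ j) (hcs j)).contDiffAt.comp x₀ ?_
      rw [contDiffAt_pi]
      intro i
      fin_cases i
      · exact hi.1.contDiffAt (hΩ.mem_nhds hx₀)
      · exact hi.2.1.contDiffAt (hΩ.mem_nhds hx₀)
      · exact (hgs j).contDiffAt ((hN j).mem_nhds (hmem j x₀ hx₀ (hF j hj)))
    · refine (Pr_contDiff (hχ j) (hcs j)).contDiffAt.comp x₀ ?_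
      rw [contDiffAt_pi]
      intro i
      fin_cases i
      · exact hi.1.contDiffAt (hΩ.mem_nhds hx₀)
      · exact hi.2.1.contDiffAt (hΩ.mem_nhds hx₀)
      · exact contDiffAt_const
  · obtain ⟨F, hF, _, _, he⟩ := hloc x₀ hx₀
    show |f x₀ 2 + ∑ᶠ j, T j x₀ - f x₀ 2| ≤ δ x₀
    rw [he, add_sub_cancel_left]
    calc |∑ j ∈ F, T j x₀| ≤ ∑ j ∈ F, |T j x₀| := Finset.abs_sum_le_sum_abs _ _
      _ ≤ ∑ j ∈ F, c j * δ x₀ := Finset.sum_le_sum fun j _ => hTb j x₀ hx₀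
      _ = (∑ j ∈ F, c j) * δ x₀ := (Finset.sum_mul _ _ _).symm
      _ ≤ 1 / 2 * δ x₀ := mul_le_mul_of_nonneg_right (hcsum _ F hF) (hδ0 x₀ hx₀).le
      _ ≤ δ x₀ := by linarith [hδ0 x₀ hx₀]
  · obtain ⟨F, hF, h1, hev, _⟩ := hloc x₀ hx₀
    have hk := cr_kills f x₀
    have hNj : ∀ j ∈ F, x₀ ∈ N j := fun j hj => hmem j x₀ hx₀ (hF j hj)
    have hd0 : DifferentiableAt ℝ (fun z => f z 0) x₀ :=
      (hi.1.contDiffAt (hΩ.mem_nhds hx₀)).differentiableAt (by simp)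
    have hd1 : DifferentiableAt ℝ (fun z => f z 1) x₀ :=
      (hi.2.1.contDiffAt (hΩ.mem_nhds hx₀)).differentiableAt (by simp)
    have hA : ∀ j : {j // j ∈ F}, ∃ L : V →L[ℝ] ℝ, HasFDerivAt (fun z => Pr (χ j) (up (f z) (g j z)) -
        Pr (χ j) (up (f z) (f x₀ 2))) L x₀ ∧ L (cr f x₀) =
          χ j (up (f x₀) (g j x₀)) * fderiv ℝ (g j) x₀ (cr f x₀) := by
      intro ⟨j, hj⟩
      have hdg : DifferentiableAt ℝ (g j) x₀ :=
        ((hgs j).contDiffAt ((hN j).mem_nhds (hNj j hj))).differentiableAt (by simp)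
      obtain ⟨L1, h2, h3⟩ := fd (hχ j) (hcs j) hd0 hd1 hdg hk.1 hk.2
      obtain ⟨L2, h4, h5⟩ := fd (hχ j) (hcs j) hd0 hd1 (differentiableAt_const (f x₀ 2)) hk.1 hk.2
      refine ⟨L1 - L2, h2.sub h4, ?_⟩
      rw [ContinuousLinearMap.sub_apply, h3, h5, fderiv_const_apply,
        ContinuousLinearMap.zero_apply, mul_zero, sub_zero]
      rfl
    choose L hL1 hL2 using hA
    have h2 : HasFDerivAt (fun x => f x₀ 2 + ∑ j ∈ F.attach, (Pr (χ j) (up (f x) (g j x)) -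
        Pr (χ j) (up (f x) (f x₀ 2)))) (∑ j ∈ F.attach, L j) x₀ :=
      (HasFDerivAt.fun_sum fun j _ => hL1 j).const_add _
    have h3 : (fun x => f x 2 + ∑ᶠ j, T j x) =ᶠ[𝓝 x₀] fun x => f x₀ 2 + ∑ j ∈ F.attach,
        (Pr (χ j) (up (f x) (g j x)) - Pr (χ j) (up (f x) (f x₀ 2))) := by
      filter_upwards [hev] with x hx
      rw [hx, ← Finset.sum_attach]
    rw [(h2.congr_of_eventuallyEq h3).fderiv, ContinuousLinearMap.sum_apply]
    rw [Finset.sum_congr rfl fun j _ => hL2 j]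
    rw [Finset.sum_attach F fun j => χ j (up (f x₀) (g j x₀)) * fderiv ℝ (g j) x₀ (cr f x₀)]
    have h4 : 0 < ∑ j ∈ F, χ j (up (f x₀) (g j x₀)) := by
      have h5 : ∑ j ∈ F, (χ j (f x₀) - c j) ≤ ∑ j ∈ F, χ j (up (f x₀) (g j x₀)) := by
        refine Finset.sum_le_sum fun j hj => ?_
        have h6 := hεc j (f x₀) (g j x₀) (hgd j x₀ (hNj j hj))
        linarith [(abs_le.1 h6).1]
      rw [Finset.sum_sub_distrib, h1] at h5
      have h7 := hcsum _ F hF
      linarith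
    obtain ⟨j, hj, hj0⟩ : ∃ j ∈ F, 0 < χ j (up (f x₀) (g j x₀)) := by
      by_contra hcon
      push Not at hcon
      exact absurd h4 (not_lt.2 (Finset.sum_nonpos hcon))
    exact Finset.sum_pos' (fun k hk' => mul_nonneg (hpos _ _) (hgc k x₀ (hNj k hk')).le)
      ⟨j, hj, mul_pos hj0 (hgc j x₀ (hNj j hj))⟩

end Vale.Agent.P073.R2.H655
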