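import Vale.Agent.P073.H655.Tame8
import Vale.Agent.P073.R2.H655.Tame9Defs

/-!
# P073: towers over the enlarged class of regular maps: the theorems
-/

namespace Vale.Agent.P073.R2.H655.V9

open MeasureTheory Set Filter Topology Metric Vale.Agent.P073.St Vale.Agent.P073.AB
open Vale.Agent.P073.H655 (FA homeo_restrict approximable_of_limit)
open Vale.Agent.P073.H655.V6 (FinelyApproximable finely_of_FA)
open Vale.Agent.P073.H655.V8 (SmallLin)
open Vale.Agent.P073.R2.H580 (FibCoord LineCoord)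
open scoped ContDiff ENNReal

variable {p : ℝ} {Ω Λ B : Set V}

/-- fine approximation for the new regular maps: the input -/
def CoordFA (p : ℝ) : Prop :=
  ∀ (Ω Λ : Set V) (f : V → V) (F : V → Mat), St.IsBoundedDomain Ω → St.IsBoundedDomain Λ →
    St.IsHomeo Ω Λ f → St.IsSobolev p Ω f F → FibCoord Ω Λ f ∨ LineCoord Ω Λ f → FA p Ω Λ f F

/-- regular maps are finely approximable -/
theorem fa_of_reg (hp : 1 ≤ p) (H : CoordFA p) (hΩ : St.IsBoundedDomain Ω)
    (hΛ : St.IsBoundedDomain Λ) {f : V → V} {F : V → Mat} (hf : St.IsHomeo Ω Λ f)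
    (hF : St.IsSobolev p Ω f F) (h : Reg Ω Λ f) : FA p Ω Λ f F := by
  rcases h with h | h
  · exact Vale.Agent.P073.H655.V7.fa_of_reg hp hΩ hΛ hf hF h
  · exact H Ω Λ f F hΩ hΛ hf hF h

/-- **towers are finely approximable** -/
theorem fa_of_tower (hp : 1 ≤ p) (H : CoordFA p) {f : V → V} (h : Tower p Ω Λ f) :
    ∀ F : V → Mat, St.IsBoundedDomain Ω → St.IsBoundedDomain Λ → St.IsHomeo Ω Λ f →
      St.IsSobolev p Ω f F → FA p Ω Λ f F := by
  induction h with
  | reg h => exact fun F hΩ hΛ hf hF => fa_of_reg hp H hΩ hΛ hf hF h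
  | step hB hBo hs _ ih =>
    intro F hΩ hΛ hf hF
    exact Vale.Agent.P073.H655.V8.step_lin hp hΩ hΛ hB hBo hf hF hs fun d1 d2 =>
      ih F d1 d2 (homeo_restrict hB hf) (RED.isSobolev_mono hBo sdiff_subset hF)

/-- **towers are finely approximable** -/
theorem tower_finely (hp : 1 ≤ p) (H : CoordFA p) (hΩ : St.IsBoundedDomain Ω)
    (hΛ : St.IsBoundedDomain Λ) {f : V → V} {F : V → Mat} (hf : St.IsHomeo Ω Λ f)
    (hF : St.IsSobolev p Ω f F) (h : Tower p Ω Λ f) : FinelyApproximable p Ω Λ f F :=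
  finely_of_FA hp hΩ hΛ hf hF (fa_of_tower hp H h F hΩ hΛ hf hF)

/-- **towers are approximable** -/
theorem tower_approximable (hp : 1 ≤ p) (H : CoordFA p) (hΩ : St.IsBoundedDomain Ω)
    (hΛ : St.IsBoundedDomain Λ) {f : V → V} {F : V → Mat} (hf : St.IsHomeo Ω Λ f)
    (hF : St.IsSobolev p Ω f F) (h : Tower p Ω Λ f) : St.DiffeoApproximable p Ω Λ f F :=
  _root_.Vale.Agent.P073.H694.FA.approximable hp hΩ hΛ hf hF (fa_of_tower hp H h F hΩ hΛ hf hF)

/-- a tower of the earlier class is a tower -/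
theorem tower_of_tower {f : V → V} (h : Vale.Agent.P073.H655.V8.Tower p Ω Λ f) :
    Tower p Ω Λ f := by
  induction h with
  | reg h => exact Tower.reg (Or.inl h)
  | step hB hBo hs _ ih => exact Tower.step hB hBo hs ih

/-- **the equivalence** -/
theorem tower_iff (hp : 1 ≤ p) (H : CoordFA p) (hΩ : St.IsBoundedDomain Ω)
    (hΛ : St.IsBoundedDomain Λ) {f : V → V} {F : V → Mat} (hf : St.IsHomeo Ω Λ f)
    (hF : St.IsSobolev p Ω f F) :
    TowerApproximable p Ω Λ f F ↔ St.DiffeoApproximable p Ω Λ f F := by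
  constructor
  · rintro ⟨g, G, hg, hlim⟩
    exact approximable_of_limit hp hΩ hΛ hf hF (fun k => (hg k).2.1)
      (fun k => tower_approximable hp H hΩ hΛ (hg k).1 (hg k).2.1 (hg k).2.2) hlim
  · intro h
    obtain ⟨g, G, hg, hlim⟩ := (Vale.Agent.P073.H655.V8.tower_iff hp hΩ hΛ hf hF).2 h
    exact ⟨g, G, fun k => ⟨(hg k).1, (hg k).2.1, tower_of_tower (hg k).2.2⟩, hlim⟩

end Vale.Agent.P073.R2.H655.V9
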